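import Mathlib
import Vale.Agent.Lib.P184.FreePath

/-!
# P184: the `ℓ¹`-Bass conjecture at classes surviving in a free quotient

Let `G` be any group and `e = (e i j)` an idempotent `q × q` matrix over `ℓ¹(G)` (entries
absolutely summable functions `G → ℂ`, idempotent for convolution).  If `f` is a homomorphism
from `G` to a free group and `f g₀ ≠ 1`, then the Hattori-Stallings coefficient of `e` at the
conjugacy class of `g₀` vanishes.  In particular, for `G` free (or residually free) all
coefficients away from the class of the identity vanish.
-/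

namespace Vale.Agent.Results.P184.FreeQuotientVanishing

theorem result {G : Type*} [Group G] {S : Type*} (f : G →* FreeGroup S)
    (q : ℕ) (e : Fin q → Fin q → G → ℂ)
    (hsum : ∀ i j, Summable (fun g => ‖e i j g‖))
    (hidem : ∀ i j g, ∑ k, ∑' h, e i k h * e k j (h⁻¹ * g) = e i j g)
    (g₀ : G) (hg : f g₀ ≠ 1) :
    HasSum (fun g : {g : G // IsConj g₀ g} => ∑ i, e i i g.1) 0 :=
  Vale.Agent.Lib.P184.free_vanish f q e hsum hidem g₀ hg

end Vale.Agent.Results.P184.FreeQuotientVanishing
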