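import Mathlib
import Vale.Agent.Lib.P184.RealHom

/-!
# P184: the `ℓ¹`-Bass conjecture at classes detected by a homomorphism to `ℝ`

Let `G` be any group and `e = (e i j)` an idempotent `q × q` matrix over `ℓ¹(G)` (entries
absolutely summable functions `G → ℂ`, idempotent for convolution).  If `φ : G → ℝ` is additive
(`φ (x * y) = φ x + φ y`) and `φ g₀ ≠ 0`, then the Hattori-Stallings coefficient of `e` at the
conjugacy class of `g₀` vanishes: `∑_{g conjugate to g₀} ∑_i e i i g = 0`.
-/

namespace Vale.Agent.Results.P184.RealHomVanishing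

theorem result {G : Type*} [Group G] (q : ℕ) (e : Fin q → Fin q → G → ℂ)
    (hsum : ∀ i j, Summable (fun g => ‖e i j g‖))
    (hidem : ∀ i j g, ∑ k, ∑' h, e i k h * e k j (h⁻¹ * g) = e i j g)
    (φ : G → ℝ) (hφ : ∀ x y, φ (x * y) = φ x + φ y) (g₀ : G) (hg : φ g₀ ≠ 0) :
    HasSum (fun g : {g : G // IsConj g₀ g} => ∑ i, e i i g.1) 0 :=
  Vale.Agent.Lib.P184.realHom_vanish q e hsum hidem φ hφ g₀ hg

end Vale.Agent.Results.P184.RealHomVanishing
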