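import Mathlib
import Vale.Agent.Lib.P184.Twist

/-!
# P184: the `ℓ¹`-Bass conjecture at classes moved by a deformation of unitary representations

Let `G` be any group and `e = (e i j)` an idempotent `q × q` matrix over `ℓ¹(G)`.  Let `π t`
(`t` real) be a family of `n`-dimensional unitary representations of `G` whose matrix entries
depend continuously on `t`.  If the characters of `π 0` and `π 1` differ at `g₀`, then the
Hattori-Stallings coefficient of `e` at the conjugacy class of `g₀` vanishes.
-/

namespace Vale.Agent.Results.P184.UnitaryDeformation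

theorem result {G : Type*} [Group G] (q : ℕ) (e : Fin q → Fin q → G → ℂ)
    (hsum : ∀ i j, Summable (fun g => ‖e i j g‖))
    (hidem : ∀ i j g, ∑ k, ∑' h, e i k h * e k j (h⁻¹ * g) = e i j g)
    (n : ℕ) (π : ℝ → G →* Matrix.unitaryGroup (Fin n) ℂ)
    (hcont : ∀ g i j, Continuous (fun t => (π t g : Matrix (Fin n) (Fin n) ℂ) i j))
    (g₀ : G)
    (hg : Matrix.trace (π 0 g₀ : Matrix (Fin n) (Fin n) ℂ)
      ≠ Matrix.trace (π 1 g₀ : Matrix (Fin n) (Fin n) ℂ)) :
    HasSum (fun g : {g : G // IsConj g₀ g} => ∑ i, e i i g.1) 0 :=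
  Vale.Agent.Lib.P184.hasSum_zero_of_mul_eq q e hsum g₀ hg
    (Vale.Agent.Lib.P184.twisted_trace q e hsum hidem n π hcont g₀ 0 1)

end Vale.Agent.Results.P184.UnitaryDeformation
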