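import Mathlib
import Vale.Agent.Lib.P184.Induced

/-!
# P184: the `ℓ¹`-Bass conjecture at classes detected by a homomorphism of a finite-index subgroup

Let `G` be any group and `e = (e i j)` an idempotent `q × q` matrix over `ℓ¹(G)` (entries
absolutely summable functions `G → ℂ`, idempotent for convolution).  If `G₀` is a subgroup of
finite index in `G`, `φ : G₀ → ℝ` is additive (`φ (x * y) = φ x + φ y`) and `g₀ ∈ G₀` has
`φ g₀ ≠ 0`, then the Hattori-Stallings coefficient of `e` at the conjugacy class of `g₀` in `G`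
vanishes: `∑_{g conjugate to g₀ in G} ∑_i e i i g = 0`.

The proof deforms `e` along the path of induced (monomial) unitary representations
`Ind_{G₀}^G (exp (i t φ))`, `t ∈ ℝ`, of dimension `[G : G₀]`.
-/

namespace Vale.Agent.Results.P184.VirtualRealHom

theorem result {G : Type*} [Group G] (q : ℕ) (e : Fin q → Fin q → G → ℂ)
    (hsum : ∀ i j, Summable (fun g => ‖e i j g‖))
    (hidem : ∀ i j g, ∑ k, ∑' h, e i k h * e k j (h⁻¹ * g) = e i j g)
    (G₀ : Subgroup G) [G₀.FiniteIndex] (φ : G₀ → ℝ) (hφ : ∀ x y, φ (x * y) = φ x + φ y)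
    (g₀ : G₀) (hg : φ g₀ ≠ 0) :
    HasSum (fun g : {g : G // IsConj (g₀ : G) g} => ∑ i, e i i g.1) 0 :=
  Vale.Agent.Lib.P184.virtual_vanish q e hsum hidem G₀ φ hφ g₀ hg

end Vale.Agent.Results.P184.VirtualRealHom
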